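import Vale.Agent.P246.R2.H429.Defs4
import Vale.Agent.P246.T.YP.Gen
import Vale.Agent.P246.T.YPc

/-! # P246, fourth wave, row TW3: simple connectivity of the covering -/

namespace Vale.Agent.P246.H54

open Vale.Agent.P246 Vale.Agent.P246.T Vale.Agent.P246.T.YP Vale.Agent.P246.H429 Topology Metric Set

/-- a path with end points in `A` deforms into `A` off a two-cell -/
theorem cell_in {W : Type} [TopologicalSpace W] [T2Space W] {A B : Set W} {Φ : C(Dk 2, W)}
    (hA : IsClosed A) (hAt : Attach 2 A B Φ) (u v : B) (γ : Path u v) (hu : u.1 ∈ A)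
    (hv : v.1 ∈ A) : ∃ δ : Path u v, (∀ t, (δ t).1 ∈ A) ∧
      Path.Homotopic.Quotient.mk δ = Path.Homotopic.Quotient.mk γ := by
  have h : CellData 2 Unit B A (fun _ => Φ) := CC.main1 W 2 _ _ _ hA hAt
  exact dec h A le_rfl (fun x hx => h.bdry () x hx)
      (fun u v a => ∃ δ : Path u v, (∀ t, (δ t).1 ∈ A) ∧ Path.Homotopic.Quotient.mk δ = a)
      (by
        rintro u v w _ _ _ _ _ ⟨δ, hδ, rfl⟩ ⟨δ', hδ', rfl⟩
        refine ⟨δ.trans δ', fun t => ?_, Path.Homotopic.Quotient.mk_trans _ _⟩
        rw [Path.trans_apply]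
        split_ifs
        · exact hδ _
        · exact hδ' _)
      (fun u v δ _ _ hδ => ⟨δ, hδ, rfl⟩)
      (by
        intro x y β hx hy
        have hr : 1 < Module.rank ℝ (Fin 2 → ℝ) := by
          rw [rank_fin_fun]
          norm_num
        have hj : JoinedIn (sphere (0 : Fin 2 → ℝ) 1) x y :=
          (isPathConnected_sphere hr 0 zero_le_one).joinedIn _ (by simpa using hx) _
            (by simpa using hy)
        have hn : ∀ t, ‖hj.somePath t‖ = 1 := fun t => by
          have := hj.somePath_mem t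
          simpa using this
        have hm : ∀ t, hj.somePath t ∈ closedBall (0 : Fin 2 → ℝ) 1 := fun t => by
          rw [mem_closedBall_zero_iff, hn]
        let β' : Path x y :=
          { toFun := fun t => ⟨hj.somePath t, hm t⟩
            continuous_toFun := hj.somePath.continuous.subtype_mk hm
            source' := Subtype.ext hj.somePath.source
            target' := Subtype.ext hj.somePath.target }
        refine ⟨β'.map (phB h).continuous, fun t => h.bdry () _ (hn t), ?_⟩
        rw [Path.Homotopic.Quotient.mk_map, Path.Homotopic.Quotient.mk_map]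
        congr 1
        exact Subsingleton.elim _ _) u v γ hu hv

theorem norm_mone : ‖((mone 2 : Dk 2) : Fin 2 → ℝ)‖ = 1 := by
  change ‖(fun _ => -1 : Fin 2 → ℝ)‖ = 1
  refine le_antisymm ((pi_norm_le_iff_of_nonneg zero_le_one).2 fun _ => by norm_num) ?_
  have := norm_le_pi_norm (fun _ => -1 : Fin 2 → ℝ) 0
  rwa [norm_neg, norm_one] at this

theorem sph_in {W : Type} [TopologicalSpace W] [T2Space W] {C B : Set W} {t : ℕ}
    (hC : IsClosed C) (h : Sph C B t) : IsClosed B ∧ (∀ (u v : B) (γ : Path u v), u.1 ∈ C →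
      v.1 ∈ C → ∃ δ : Path u v, (∀ s, (δ s).1 ∈ C) ∧
        Path.Homotopic.Quotient.mk δ = Path.Homotopic.Quotient.mk γ) ∧
      (C ⊆ B) ∧ ∀ y ∈ B, ∃ z ∈ C, JoinedIn B y z := by
  induction h with
  | base =>
    exact ⟨hC, fun u v γ _ _ => ⟨γ, fun s => (γ s).2, rfl⟩, le_rfl,
      fun y hy => ⟨y, hy, JoinedIn.refl hy⟩⟩
  | @cell A B t Φ a hS ha hΦ hAt ih =>
    obtain ⟨hA, ih1, hsub, ih2⟩ := ih
    have hAB : A ⊆ B := by rw [hAt.eq]; exact subset_union_left
    refine ⟨?_, ?_, hsub.trans hAB, ?_⟩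
    · rw [hAt.eq]
      exact hA.union (isCompact_range Φ.continuous).isClosed
    · intro u v γ hu hv
      obtain ⟨δ, hδ, he⟩ := cell_in hA hAt u v γ (hsub hu) (hsub hv)
      let incl : C(A, B) := ⟨Set.inclusion hAB, continuous_inclusion hAB⟩
      obtain ⟨u, hu'⟩ := u
      obtain ⟨v, hv'⟩ := v
      let δ' : Path (⟨u, hsub hu⟩ : A) ⟨v, hsub hv⟩ :=
        { toFun := fun s => ⟨(δ s).1, hδ s⟩
          continuous_toFun := (continuous_subtype_val.comp δ.continuous).subtype_mk _
          source' := Subtype.ext (by change (δ 0).1 = _; rw [δ.source])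
          target' := Subtype.ext (by change (δ 1).1 = _; rw [δ.target]) }
      obtain ⟨ε, hε, he'⟩ := ih1 _ _ δ' hu hv
      refine ⟨ε.map incl.continuous, fun s => hε s, ?_⟩
      have h3 : δ'.map incl.continuous = δ := by
        ext s
        rfl
      have h4 := congrArg (fun b => Path.Homotopic.Quotient.map b incl) he'
      change Path.Homotopic.Quotient.map _ incl = Path.Homotopic.Quotient.map _ incl at h4
      rw [← Path.Homotopic.Quotient.mk_map, ← Path.Homotopic.Quotient.mk_map, h3] at h4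
      exact h4.trans he
    · intro y hy
      have hy' := hy
      rw [hAt.eq] at hy'
      rcases hy' with h1 | ⟨x, rfl⟩
      · obtain ⟨z, hz, hj⟩ := ih2 y h1
        exact ⟨z, hz, hj.mono hAB⟩
      · obtain ⟨z, hz, hj⟩ := ih2 (Φ (mone 2)) (hAt.bdry _ norm_mone)
        refine ⟨z, hz, JoinedIn.trans ?_ (hj.mono hAB)⟩
        refine ((isPathConnected_range Φ.continuous).joinedIn _ ⟨x, rfl⟩ _ ⟨mone 2, rfl⟩).mono ?_
        rw [hAt.eq]
        exact subset_union_right

/-- ROW TW3 -/
theorem tw3 : SpecSCW := by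
  intro G W F _ _ _ _ _ _ q hq C t hC hS hsc
  have hcov : IsCoveringMap q := hq.isCoveringMap
  obtain ⟨-, hin, -, hj⟩ := sph_in hC hS
  have hpc : PathConnectedSpace (q ⁻¹' C : Set F) := inferInstance
  obtain ⟨⟨e, he⟩⟩ := hpc.nonempty
  have hjn : ∀ y : F, Joined e y := by
    intro y
    obtain ⟨z, hz, hjz⟩ := hj (q y) (mem_univ _)
    obtain ⟨δ⟩ := hjz.joined
    have e0 : (δ : C(I, W)) 0 = q y := δ.source
    let Γ := hcov.liftPath δ y e0
    have h1 : q (Γ 1) = z := by
      have := congrFun (hcov.liftPath_lifts δ y e0) 1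
      exact this.trans δ.target
    have h2 : Γ 1 ∈ q ⁻¹' C := by
      change q (Γ 1) ∈ C
      rw [h1]; exact hz
    have h5 : Joined y (Γ 1) := ⟨⟨Γ, hcov.liftPath_zero δ y e0, rfl⟩⟩
    obtain ⟨η⟩ := hpc.joined ⟨e, he⟩ ⟨Γ 1, h2⟩
    have h6 : Joined e (Γ 1) := ⟨η.map continuous_subtype_val⟩
    exact h6.trans h5.symm
  have hPC : PathConnectedSpace F :=
    ⟨⟨e⟩, fun y z => (hjn y).symm.trans (hjn z)⟩
  have hloop : ∀ γ : Path e e, γ.Homotopic (Path.refl e) := by
    intro γ
    let u : (univ : Set W) := ⟨q e, mem_univ _⟩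
    let γ' : Path u u :=
      { toFun := fun s => ⟨q (γ s), mem_univ _⟩
        continuous_toFun := (q.continuous.comp γ.continuous).subtype_mk _
        source' := Subtype.ext (by change q (γ 0) = _; rw [γ.source])
        target' := Subtype.ext (by change q (γ 1) = _; rw [γ.target]) }
    obtain ⟨δ', hδ', hh⟩ := hin u u γ' he he
    let δ : Path (q e) (q e) := δ'.map continuous_subtype_val
    let δ0 : Path (q e) (q e) := γ.map q.continuous
    have hδ : δ.Homotopic δ0 := by
      have h1 : δ'.Homotopic γ' := Path.Homotopic.Quotient.eq.1 hh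
      exact hom_of_eq (h1.map ⟨Subtype.val, continuous_subtype_val⟩) (fun _ => rfl) (fun _ => rfl)
    have hrel : (δ : C(I, W)).HomotopicRel (δ0 : C(I, W)) {0, 1} := hδ
    have e0 : (δ : C(I, W)) 0 = q e := δ.source
    have e1 : (δ0 : C(I, W)) 0 = q e := δ0.source
    have h1 := hcov.liftPath_apply_one_eq_of_homotopicRel hrel e e0 e1
    have h2 : (γ : C(I, F)) = hcov.liftPath δ0 e e1 :=
      (hcov.eq_liftPath_iff' e1).2 ⟨rfl, γ.source⟩
    rw [← h2] at h1
    let Γ := hcov.liftPath δ e e0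
    have hΓ : ∀ s, q (Γ s) = δ s := fun s => congrFun (hcov.liftPath_lifts δ e e0) s
    have hΓC : ∀ s, Γ s ∈ q ⁻¹' C := fun s => by
      change q (Γ s) ∈ C
      rw [hΓ s]; exact hδ' s
    have hΓ0 : Γ 0 = e := hcov.liftPath_zero δ e e0
    have hΓ1 : Γ 1 = e := h1.trans γ.target
    let Γc : Path (⟨e, he⟩ : (q ⁻¹' C : Set F)) ⟨e, he⟩ :=
      { toFun := fun s => ⟨Γ s, hΓC s⟩
        continuous_toFun := Γ.continuous.subtype_mk _
        source' := Subtype.ext hΓ0
        target' := Subtype.ext hΓ1 }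
    have h3 : Γc.Homotopic (Path.refl _) := SimplyConnectedSpace.paths_homotopic _ _
    let Γ' : Path e e := ⟨Γ, hΓ0, hΓ1⟩
    have h4 : Γ'.Homotopic (Path.refl e) :=
      hom_of_eq (h3.map ⟨Subtype.val, continuous_subtype_val⟩) (fun _ => rfl) (fun _ => rfl)
    have h9 : (Path.Homotopic.Quotient.mk γ).map q = (Path.Homotopic.Quotient.mk Γ').map q := by
      refine Path.Homotopic.Quotient.eq.2 ?_
      exact hom_of_eq hδ.symm (fun _ => rfl) (fun s => hΓ s)
    have h10 : γ.Homotopic Γ' :=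
      Path.Homotopic.Quotient.eq.1 (hcov.injective_path_homotopic_map _ _ h9)
    exact h10.trans h4
  rw [simply_connected_iff_loops_nullhomotopic]
  refine ⟨hPC, fun y γ => ?_⟩
  obtain ⟨δ⟩ := hjn y
  have h := hloop ((δ.trans γ).trans δ.symm)
  have h0 : Path.Homotopic.Quotient.mk ((δ.trans γ).trans δ.symm) =
      Path.Homotopic.Quotient.mk (Path.refl _) := Path.Homotopic.Quotient.eq.2 h
  apply Path.Homotopic.Quotient.eq.1
  have h1 : Path.Homotopic.Quotient.mk γ = ((Path.Homotopic.Quotient.mk δ).symm.trans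
      (((Path.Homotopic.Quotient.mk δ).trans (Path.Homotopic.Quotient.mk γ)).trans
        (Path.Homotopic.Quotient.mk δ).symm)).trans (Path.Homotopic.Quotient.mk δ) := by
    simp
    rw [← Path.Homotopic.Quotient.trans_assoc]
    simp
  rw [h1]
  have h2 : ((Path.Homotopic.Quotient.mk δ).trans (Path.Homotopic.Quotient.mk γ)).trans
        (Path.Homotopic.Quotient.mk δ).symm = Path.Homotopic.Quotient.refl _ := h0
  rw [h2]
  simp

end Vale.Agent.P246.H54
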